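import Vale.Agent.P129.H560.BranchVec
import Vale.Agent.P129.H200.ZSeq
import Vale.Agent.P129.H200.AvgVec

/-!
# P129, part H1: existence of the sequences `z`
-/

open Finset Filter Topology

namespace Vale.Agent.P129.H560

open H448 H487 H200

/-! ### the norm -/

theorem nrm_le {x : Vec} {c : ℝ} (h : ∀ φ ∈ K, |ap φ x| ≤ c) : nrm x ≤ c := by
  have : Nonempty K := ⟨⟨0, B.zero_mem_K⟩⟩
  exact ciSup_le fun φ => h φ.1 φ.2

theorem nrm_nonneg (x : Vec) : 0 ≤ nrm x := (abs_nonneg _).trans (abs_ap_le_nrm B.zero_mem_K x)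

theorem nrm_add_le (x y : Vec) : nrm (x + y) ≤ nrm x + nrm y :=
  nrm_le fun φ hφ => by
    rw [ap_add_right]
    exact (abs_add_le _ _).trans (add_le_add (abs_ap_le_nrm hφ x) (abs_ap_le_nrm hφ y))

theorem nrm_sub_le (x y : Vec) : nrm (x - y) ≤ nrm x + nrm y :=
  nrm_le fun φ hφ => by
    rw [B.ap_sub]
    exact (abs_sub _ _).trans (add_le_add (abs_ap_le_nrm hφ x) (abs_ap_le_nrm hφ y))

theorem nrm_smul (c : ℝ) (x : Vec) : nrm (c • x) = |c| * nrm x := by
  simp only [nrm, B.ap_smul, abs_mul]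
  exact (Real.mul_iSup_of_nonneg (abs_nonneg c) _).symm

theorem nrm_res_le {I : Set W} (hI : I.OrdConnected) (x : Vec) : nrm (res I x) ≤ nrm x :=
  nrm_le fun φ hφ => by rw [B.ap_res]; exact abs_ap_le_nrm (B.res_mem_K hφ hI) x

theorem abs_apply_le_nrm (x : Vec) (a : W) : |x a| ≤ nrm x := by
  have := abs_ap_le_nrm (B.single_mem_K a) x
  rw [B.single_ap] at this
  simpa using this

theorem nrm_pos {x : Vec} (h : x ≠ 0) : 0 < nrm x := by
  obtain ⟨a, ha⟩ := Finsupp.support_nonempty_iff.2 h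
  exact (abs_pos.2 (Finsupp.mem_support_iff.1 ha)).trans_le (abs_apply_le_nrm x a)

/-! ### averages -/

theorem AvgBound.mono {n n' : ℕ} {x : Vec} {C : ℝ} (h : AvgBound n x C) (hn : n' ≤ n) :
    AvgBound n' x C := fun d I hd hI hlt => h d I (hd.trans hn) hI hlt

theorem AvgBound.sub {n : ℕ} {x y : Vec} {C D : ℝ} (hx : AvgBound n x C) (hy : AvgBound n y D) :
    AvgBound n (x - y) (C + D) := fun d I hd hI hlt => by
  calc ∑ i ∈ range d, nrm (res (I i) (x - y))
      ≤ ∑ i ∈ range d, (nrm (res (I i) x) + nrm (res (I i) y)) :=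
        sum_le_sum fun i _ => by rw [B.res_sub]; exact nrm_sub_le _ _
    _ = ∑ i ∈ range d, nrm (res (I i) x) + ∑ i ∈ range d, nrm (res (I i) y) := sum_add_distrib
    _ ≤ C + D := add_le_add (hx d I hd hI hlt) (hy d I hd hI hlt)

/-- A weighted functional of small weight on an average. -/
theorem abs_ap_le_of_avg {N n : ℕ} {x : Vec} {C : ℝ} (hx : AvgBound N x C) (hn : n ≤ N) {φ : Fn}
    (hφ : φ ∈ Wtd K n) : |ap φ x| ≤ C * (m n : ℝ)⁻¹ := by
  obtain ⟨d, ψ, hd, hψ, hs, rfl⟩ := hφ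
  have h0 : (0 : ℝ) ≤ (m n : ℝ)⁻¹ := by positivity
  rw [ap_smul_left, ap_sum_left]
  push_cast
  rw [abs_mul, abs_of_nonneg h0, mul_comm]
  refine mul_le_mul_of_nonneg_right ?_ h0
  calc |∑ i ∈ range d, ap (ψ i) x| ≤ ∑ i ∈ range d, |ap (ψ i) x| := abs_sum_le_sum_abs _ _
    _ ≤ ∑ i ∈ range d, nrm (res (ran (ψ i).support) x) := sum_le_sum fun i hi => by
        rw [ap_res_ran]
        exact abs_ap_le_nrm (hψ i (mem_range.1 hi)) _
    _ ≤ C := hx d (fun i => ran (ψ i).support) (hd.trans hn)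
        (fun i _ => ran_ordConnected _) (fun i j hij hj => ran_ilt (hs i j hij hj))

theorem abs_ap_le_of_l1 {n : ℕ} {φ : Fn} (hφ : φ ∈ Wtd K n) (x : Vec) :
    |ap φ x| ≤ l1 x * (m n : ℝ)⁻¹ := by
  rw [mul_comm]
  refine abs_ap_le_of_apply (fun a => ?_) x
  have h := B.abs_apply_le_of_Wtd hφ a
  have h2 : ((|φ a| : ℚ) : ℝ) ≤ ((m n : ℚ)⁻¹ : ℚ) := by exact_mod_cast h
  rw [Rat.cast_abs] at h2
  simpa using h2

theorem l1_eq_sum {x : Vec} {t : Finset W} (h : x.support ⊆ t) : l1 x = ∑ a ∈ t, |x a| :=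
  sum_subset h fun a _ ha => by rw [Finsupp.notMem_support_iff.1 ha, abs_zero]

theorem l1_sub_le (x y : Vec) : l1 (x - y) ≤ l1 x + l1 y := by
  classical
  rw [l1_eq_sum (t := x.support ∪ y.support) Finsupp.support_sub,
    l1_eq_sum (x := x) (t := x.support ∪ y.support) subset_union_left,
    l1_eq_sum (x := y) (t := x.support ∪ y.support) subset_union_right, ← sum_add_distrib]
  exact sum_le_sum fun a _ => by rw [Finsupp.sub_apply]; exact abs_sub _ _

/-! ### one step -/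

/-- Existence of `ℓ¹`-averages (the form which is used here). -/
def AvgExists : Prop := ∀ z : ℕ → Vec, (∀ i j, i < j → SLt (z i).support (z j).support) →
  (∀ i, 1 ≤ nrm (z i) ∧ nrm (z i) ≤ 2) → ∀ A K₀ : ℕ,
    ∃ x ∈ Submodule.span ℝ (z '' {k | K₀ ≤ k}), nrm x = 1 ∧ AvgBound (ell A) x 3

theorem exists_step (hav : AvgExists) {l : W} {h : ℕ → Vec} (hb : IsBlock l h) (A K₀ i : ℕ) :
    ∃ (x : Vec) (b K₁ A' : ℕ), x ∈ Submodule.span ℝ (h '' {k | K₀ ≤ k}) ∧ nrm x = 1 ∧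
      AvgBound (ell A) x 3 ∧ A < b ∧ l1 x / m (ell (b + 1)) ≤ (1 / 2 : ℝ) ^ (i + 6) ∧ b ≤ A' ∧
      K₀ < K₁ ∧ (∀ k, K₁ ≤ k → ∀ a ∈ x.support, ∀ c ∈ (h k).support, a < c) ∧
      x.support ⊆ F A' l := by
  classical
  have hpos : ∀ k, 0 < nrm (h k) := fun k => nrm_pos (hb.ne k)
  obtain ⟨x, hx, hx1, hx3⟩ := hav (fun k => (nrm (h k))⁻¹ • h k)
    (fun i j hij a ha b hb' => hb.succ i j hij a (Finsupp.support_smul ha) b
      (Finsupp.support_smul hb'))
    (fun k => by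
      have : nrm ((nrm (h k))⁻¹ • h k) = 1 := by
        rw [nrm_smul, abs_of_pos (inv_pos.2 (hpos k)), inv_mul_cancel₀ (hpos k).ne']
      simp only [this]
      norm_num) A K₀
  have hx' : x ∈ Submodule.span ℝ (h '' {k | K₀ ≤ k}) := by
    refine (Submodule.span_le.2 ?_) hx
    rintro _ ⟨k, hk, rfl⟩
    exact Submodule.smul_mem _ _ (Submodule.subset_span ⟨k, hk, rfl⟩)
  have hxl : ∀ a ∈ x.support, a < l := by
    intro a ha
    obtain ⟨k, -, hk⟩ := H50.mem_support_of_span hx' a ha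
    exact hb.lt k a hk
  obtain ⟨K₁, hK₁⟩ := H50.exists_tail hb x.support hxl
  -- the level `b`
  obtain ⟨n, hn⟩ := exists_nat_ge (l1 x / (1 / 2 : ℝ) ^ (i + 6))
  have hnb : l1 x / m (ell (max (A + 1) n + 1)) ≤ (1 / 2 : ℝ) ^ (i + 6) := by
    rw [div_le_iff₀ (by positivity)] at hn
    rw [div_le_iff₀ (m_posR _)]
    have h1 : (n : ℝ) ≤ m (ell (max (A + 1) n + 1)) := by
      have := B.lt_m_ell (max (A + 1) n + 1)
      exact_mod_cast (le_max_right (A + 1) n).trans ((Nat.le_succ _).trans this.le)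
    calc l1 x ≤ n * (1 / 2 : ℝ) ^ (i + 6) := hn
      _ ≤ m (ell (max (A + 1) n + 1)) * (1 / 2 : ℝ) ^ (i + 6) :=
        mul_le_mul_of_nonneg_right h1 (by positivity)
      _ = _ := mul_comm _ _
  -- the level `A'`
  have h2 : ∀ a : W, ∃ q, a ≤ l → a ∈ F q l := by
    intro a
    by_cases hal : a ≤ l
    · obtain ⟨q, hq⟩ := F_coherent.exists_mem l a hal
      exact ⟨q, fun _ => hq⟩
    · exact ⟨0, fun h => absurd h hal⟩
  choose g hg using h2
  refine ⟨x, max (A + 1) n, max K₁ (K₀ + 1), max (max (A + 1) n) (x.support.sup g), hx', hx1, hx3,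
    lt_of_lt_of_le (Nat.lt_succ_self A) (le_max_left _ _), hnb, le_max_left _ _,
    lt_of_lt_of_le (Nat.lt_succ_self K₀) (le_max_right _ _),
    fun k hk a ha c hc => hK₁ k ((le_max_left _ _).trans hk) a ha c hc, fun a ha => ?_⟩
  exact F_coherent.mono l ((Finset.le_sup (f := g) ha).trans (le_max_right _ _))
    (hg a (hxl a ha).le)

/-! ### the first sequence -/

/-- the sequence of averages with windows `(a k, b k]` -/
structure XSeq (l : W) (h x : ℕ → Vec) (a b : ℕ → ℕ) : Prop where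
  mem : ∀ k, x k ∈ Submodule.span ℝ (h '' {j | k ≤ j})
  succ : ∀ i j, i < j → SLt (x i).support (x j).support
  one : ∀ k, nrm (x k) = 1
  ab : ∀ k, a k < b k
  ba : ∀ k, b k ≤ a (k + 1)
  avg : ∀ k, AvgBound (ell (a k)) (x k) 3
  high : ∀ k, l1 (x k) / m (ell (b k + 1)) ≤ (1 / 2 : ℝ) ^ (k + 6)
  coh : ∀ i k, i < k → (x i).support ⊆ F (a k) l

theorem exists_xseq (hav : AvgExists) {l : W} {h : ℕ → Vec} (hb : IsBlock l h) :
    ∃ x a b, XSeq l h x a b := by
  classical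
  choose X b K₁ A' h1 h2 h3 h4 h5 h6 h7 h8 h9 using
    fun A K₀ i => exists_step hav hb A K₀ i
  let st : ℕ → ℕ × ℕ := fun n => Nat.rec (0, 0) (fun i s => (A' s.1 s.2 i, K₁ s.1 s.2 i)) n
  have hst1 : ∀ i, (st (i + 1)).1 = A' (st i).1 (st i).2 i := fun i => rfl
  have hst2 : ∀ i, (st (i + 1)).2 = K₁ (st i).1 (st i).2 i := fun i => rfl
  have hmono2 : StrictMono fun i => (st i).2 :=
    strictMono_nat_of_lt_succ fun i => by rw [hst2]; exact h7 _ _ _
  have hmono1 : Monotone fun i => (st i).1 :=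
    monotone_nat_of_le_succ fun i => by
      rw [hst1]; exact ((h4 _ _ _).le).trans (h6 _ _ _)
  refine ⟨fun i => X (st i).1 (st i).2 i, fun i => (st i).1, fun i => b (st i).1 (st i).2 i,
    ⟨fun k => ?_, fun i j hij => ?_, fun k => h2 _ _ _, fun k => h4 _ _ _, fun k => ?_,
      fun k => h3 _ _ _, fun k => h5 _ _ _, fun i k hik => ?_⟩⟩
  · refine Submodule.span_mono (Set.image_mono fun j hj => ?_) (h1 _ _ _)
    exact (hmono2.id_le k).trans hj
  · intro c hc d hd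
    obtain ⟨k, hk, hdk⟩ := H50.mem_support_of_span (h1 _ _ _) d hd
    refine h8 _ _ _ k ?_ c hc d hdk
    have : (st (i + 1)).2 ≤ (st j).2 := hmono2.monotone hij
    rw [hst2] at this
    exact this.trans hk
  · rw [hst1]; exact h6 _ _ _
  · refine (h9 _ _ _).trans ?_
    rw [← hst1]
    exact F_coherent.mono l (hmono1 hik)

namespace XSeq

variable {l : W} {h x : ℕ → Vec} {a b : ℕ → ℕ}

theorem lt (hx : XSeq l h x a b) (hb : IsBlock l h) (k : ℕ) : ∀ α ∈ (x k).support, α < l := by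
  intro α hα
  obtain ⟨j, -, hj⟩ := H50.mem_support_of_span (hx.mem k) α hα
  exact hb.lt j α hj

theorem tail (hx : XSeq l h x a b) (hb : IsBlock l h) {α : W} (hα : α < l) :
    ∃ k₀, ∀ k, k₀ ≤ k → ∀ β ∈ (x k).support, α < β := by
  obtain ⟨k₀, hk₀⟩ := H50.exists_tail hb {α} (by simpa using hα)
  refine ⟨k₀, fun k hk β hβ => ?_⟩
  obtain ⟨j, hj, hβj⟩ := H50.mem_support_of_span (hx.mem k) β hβ
  exact hk₀ j (hk.trans hj) α (mem_singleton_self α) β hβj

theorem vblock (hx : XSeq l h x a b) (hb : IsBlock l h) : VBlock l x :=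
  ⟨hx.succ, hx.lt hb, fun _ hα => hx.tail hb hα⟩

theorem a_mono (hx : XSeq l h x a b) : StrictMono a :=
  strictMono_nat_of_lt_succ fun k => (hx.ab k).trans_le (hx.ba k)

theorem b_mono (hx : XSeq l h x a b) : StrictMono b :=
  strictMono_nat_of_lt_succ fun k => (hx.ba k).trans_lt (hx.ab (k + 1))

theorem b_le_a (hx : XSeq l h x a b) {i j : ℕ} (hij : i < j) : b i ≤ a j :=
  (hx.ba i).trans (hx.a_mono.monotone hij)

end XSeq

/-! ### the window part of a branch -/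

/-- The window part of an infinite special sequence on `z`: up to a small error it is the value of
the branch. -/
theorem abs_window_le {Φ : ℕ → Node} (hΦ : IsInf Φ) (z : Vec) {a b J : ℕ} {C η : ℝ}
    (hC : 0 ≤ C) (havg : AvgBound (ell a) z C) (hhigh : l1 z / m (ell (b + 1)) ≤ η)
    (hJ : ∀ j < J, ∀ α ∈ z.support, (Φ j).φ α = 0) :
    |ap (Seg.fn ⟨Φ, b + 1, Set.Ioc a b, Set.univ⟩) z| ≤
      |pr (br Φ) z| + C * (2 * (m (ell J) : ℝ)⁻¹) + 2 * η := by
  classical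
  obtain ⟨N, hN⟩ := exists_vanish hΦ z
  set s : Seg := ⟨Φ, b + 1, Set.Ioc a b, Set.univ⟩ with hs
  set T := range (max N (b + 1)) with hT
  have hwlt : ∀ j, j < (Φ j).w := fun j => (hΦ (j + 1)).cod.le_w (Nat.lt_succ_self j)
  have hwinj : ∀ (P : Finset ℕ), Set.InjOn (fun j => (Φ j).w) P := by
    intro P i _ j _ hij
    exact (hΦ (max i j + 1)).cod.w_inj (by omega) (by omega) hij
  have hsub : s.nodes ⊆ T := by
    intro j hj
    have := (mem_nodes.1 hj).1
    rw [hT, mem_range]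
    exact lt_of_lt_of_le this (le_max_right _ _)
  have hbr : pr (br Φ) z = ∑ j ∈ T, ap (Φ j).φ z := by
    refine pr_br_eq z T fun k hk => hN k ?_
    rw [hT, mem_range, not_lt] at hk
    exact (le_max_left _ _).trans hk
  have hfn : ap s.fn z = ∑ j ∈ s.nodes, ap (Φ j).φ z := by
    rw [ap_fn]
    refine sum_congr rfl fun k _ => ?_
    show ap (res Set.univ (Φ k).φ) z = _
    rw [res_univ]
  have hsplit : ap s.fn z = pr (br Φ) z - ∑ j ∈ T \ s.nodes, ap (Φ j).φ z := by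
    rw [hbr, hfn, ← sum_sdiff hsub]
    ring
  set T1 := T.filter fun j => J ≤ j ∧ (Φ j).w ≤ a with hT1
  set T2 := T.filter fun j => b < (Φ j).w with hT2
  have hsum : ∑ j ∈ T \ s.nodes, |ap (Φ j).φ z| ≤
      ∑ j ∈ T1, |ap (Φ j).φ z| + ∑ j ∈ T2, |ap (Φ j).φ z| := by
    have e1 : ∑ j ∈ T \ s.nodes, |ap (Φ j).φ z| =
        ∑ j ∈ (T \ s.nodes).filter (fun j => J ≤ j), |ap (Φ j).φ z| := by
      symm
      refine sum_filter_of_ne fun j _ hne => ?_
      by_contra hlt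
      apply hne
      rw [abs_eq_zero]
      refine ap_eq_zero fun α hα hαz => ?_
      exact (Finsupp.mem_support_iff.1 hα) (hJ j (not_le.1 hlt) α hαz)
    rw [e1]
    have e2 : ∑ j ∈ T1 ∪ T2, |ap (Φ j).φ z| ≤
        ∑ j ∈ T1, |ap (Φ j).φ z| + ∑ j ∈ T2, |ap (Φ j).φ z| := by
      rw [← sum_union_inter]
      exact le_add_of_nonneg_right (sum_nonneg fun _ _ => abs_nonneg _)
    refine le_trans (sum_le_sum_of_subset_of_nonneg (t := T1 ∪ T2) ?_
      fun _ _ _ => abs_nonneg _) e2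
    intro j hj
    rw [mem_filter, Finset.mem_sdiff] at hj
    rw [mem_union, hT1, hT2, mem_filter, mem_filter]
    obtain ⟨⟨hjT, hjn⟩, hJj⟩ := hj
    by_cases h1 : b < (Φ j).w
    · exact Or.inr ⟨hjT, h1⟩
    · left
      refine ⟨hjT, hJj, ?_⟩
      by_contra h2
      apply hjn
      refine mem_nodes.2 ⟨?_, ?_, ?_⟩
      · show j < b + 1
        have := hwlt j
        omega
      · exact not_le.1 h2
      · exact not_lt.1 h1
  have hb1 : ∑ j ∈ T1, |ap (Φ j).φ z| ≤ C * (2 * (m (ell J) : ℝ)⁻¹) := by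
    calc ∑ j ∈ T1, |ap (Φ j).φ z| ≤ ∑ j ∈ T1, C * ((m (ell (Φ j).w) : ℕ) : ℝ)⁻¹ := by
          refine sum_le_sum fun j hj => ?_
          rw [hT1, mem_filter] at hj
          exact abs_ap_le_of_avg havg (ell_strictMono.monotone hj.2.2)
            ((hΦ (j + 1)).wtd j (Nat.lt_succ_self j))
      _ = C * ∑ j ∈ T1, ((m (ell (Φ j).w) : ℕ) : ℝ)⁻¹ := by rw [mul_sum]
      _ ≤ C * (2 * (m (ell J) : ℝ)⁻¹) := by
          refine mul_le_mul_of_nonneg_left ?_ hC
          refine sum_inv_le' (M := fun w => ((m (ell w) : ℕ) : ℝ)) (fun w => m_posR _) geo_ell T1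
            (fun j => (Φ j).w) (hwinj T1) J fun j hj => ?_
          rw [hT1, mem_filter] at hj
          exact hj.2.1.trans (hwlt j).le
  have hb2 : ∑ j ∈ T2, |ap (Φ j).φ z| ≤ 2 * η := by
    calc ∑ j ∈ T2, |ap (Φ j).φ z| ≤ ∑ j ∈ T2, l1 z * ((m (ell (Φ j).w) : ℕ) : ℝ)⁻¹ := by
          refine sum_le_sum fun j _ => ?_
          exact abs_ap_le_of_l1 ((hΦ (j + 1)).wtd j (Nat.lt_succ_self j)) z
      _ = l1 z * ∑ j ∈ T2, ((m (ell (Φ j).w) : ℕ) : ℝ)⁻¹ := by rw [mul_sum]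
      _ ≤ l1 z * (2 * (m (ell (b + 1)) : ℝ)⁻¹) := by
          refine mul_le_mul_of_nonneg_left ?_ (l1_nonneg z)
          refine sum_inv_le' (M := fun w => ((m (ell w) : ℕ) : ℝ)) (fun w => m_posR _) geo_ell T2
            (fun j => (Φ j).w) (hwinj T2) (b + 1) fun j hj => ?_
          rw [hT2, mem_filter] at hj
          exact hj.2
      _ = 2 * (l1 z / m (ell (b + 1))) := by rw [div_eq_mul_inv]; ring
      _ ≤ 2 * η := by linarith
  rw [hsplit]
  calc |pr (br Φ) z - ∑ j ∈ T \ s.nodes, ap (Φ j).φ z|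
      ≤ |pr (br Φ) z| + |∑ j ∈ T \ s.nodes, ap (Φ j).φ z| := abs_sub _ _
    _ ≤ |pr (br Φ) z| + ∑ j ∈ T \ s.nodes, |ap (Φ j).φ z| :=
        add_le_add le_rfl (abs_sum_le_sum_abs _ _)
    _ ≤ _ := by linarith

/-! ### the second sequence -/

/-- **H1.** -/
theorem exists_zseq_of_avg (hav : AvgExists) {l : W} {h : ℕ → Vec} (hb : IsBlock l h) :
    ∃ z a b, ZSeq l h z a b := by
  classical
  obtain ⟨x, a, b, hx⟩ := exists_xseq hav hb
  have hvb := hx.vblock hb
  obtain ⟨ν, hν, hconv⟩ := branch_conv hvb fun k => (hx.one k).le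
  have hνk : ∀ k, k ≤ ν (2 * k) := fun k =>
    le_trans (show k ≤ 2 * k by omega) (hν.id_le (2 * k))
  have hνk' : ∀ k, k ≤ ν (2 * k + 1) := fun k =>
    le_trans (show k ≤ 2 * k + 1 by omega) (hν.id_le (2 * k + 1))
  have hν1 : ∀ k, ν (2 * k) < ν (2 * k + 1) := fun k => hν (by omega)
  have hsupp : ∀ k, (x (ν (2 * k)) - x (ν (2 * k + 1))).support ⊆
      (x (ν (2 * k))).support ∪ (x (ν (2 * k + 1))).support := fun k => Finsupp.support_sub
  have havg : ∀ k, AvgBound (ell (a (ν (2 * k)))) (x (ν (2 * k)) - x (ν (2 * k + 1))) 6 := by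
    intro k
    have h1 := AvgBound.mono (hx.avg (ν (2 * k + 1)))
      (ell_strictMono.monotone (hx.a_mono (hν1 k)).le)
    have h2 := AvgBound.sub (hx.avg (ν (2 * k))) h1
    norm_num at h2
    exact h2
  have hhigh : ∀ k, l1 (x (ν (2 * k)) - x (ν (2 * k + 1))) / m (ell (b (ν (2 * k + 1)) + 1)) ≤
      (1 / 2 : ℝ) ^ (k + 5) := by
    intro k
    have hm : (m (ell (b (ν (2 * k)) + 1)) : ℝ) ≤ m (ell (b (ν (2 * k + 1)) + 1)) := by
      have := m_mono (ell_strictMono.monotone (Nat.succ_le_succ (hx.b_mono (hν1 k)).le))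
      exact_mod_cast this
    have h1 : l1 (x (ν (2 * k))) / m (ell (b (ν (2 * k + 1)) + 1)) ≤ (1 / 2 : ℝ) ^ (k + 6) :=
      ((div_le_div_of_nonneg_left (l1_nonneg _) (m_posR _) hm).trans (hx.high _)).trans
        (pow_le_pow_of_le_one (by norm_num) (by norm_num) (by have := hνk k; omega))
    have h2 : l1 (x (ν (2 * k + 1))) / m (ell (b (ν (2 * k + 1)) + 1)) ≤ (1 / 2 : ℝ) ^ (k + 6) :=
      (hx.high _).trans
        (pow_le_pow_of_le_one (by norm_num) (by norm_num) (by have := hνk' k; omega))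
    calc l1 (x (ν (2 * k)) - x (ν (2 * k + 1))) / m (ell (b (ν (2 * k + 1)) + 1))
        ≤ (l1 (x (ν (2 * k))) + l1 (x (ν (2 * k + 1)))) / m (ell (b (ν (2 * k + 1)) + 1)) :=
          div_le_div_of_nonneg_right (l1_sub_le _ _) (m_posR _).le
      _ = l1 (x (ν (2 * k))) / m (ell (b (ν (2 * k + 1)) + 1)) +
          l1 (x (ν (2 * k + 1))) / m (ell (b (ν (2 * k + 1)) + 1)) := add_div _ _ _
      _ ≤ (1 / 2 : ℝ) ^ (k + 6) + (1 / 2 : ℝ) ^ (k + 6) := add_le_add h1 h2
      _ = (1 / 2 : ℝ) ^ (k + 5) := by ring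
  refine ⟨fun k => x (ν (2 * k)) - x (ν (2 * k + 1)), fun k => a (ν (2 * k)),
    fun k => b (ν (2 * k + 1)), ⟨fun k => ?_, fun i j hij => ?_, fun k α hα => ?_, fun α hα => ?_,
      fun k => ?_, fun k => ?_, fun k => ?_, fun k => ?_, havg, hhigh, fun i k hik => ?_,
      fun Φ hΦ => ?_⟩⟩
  · refine Submodule.sub_mem _ ?_ ?_
    · exact Submodule.span_mono (Set.image_mono fun j hj => (hνk k).trans hj) (hx.mem _)
    · exact Submodule.span_mono (Set.image_mono fun j hj => (hνk' k).trans hj) (hx.mem _)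
  · intro c hc d hd
    have hc' := mem_union.1 (hsupp i hc)
    have hd' := mem_union.1 (hsupp j hd)
    rcases hc' with hc' | hc' <;> rcases hd' with hd' | hd'
    · exact hx.succ _ _ (hν (by omega)) c hc' d hd'
    · exact hx.succ _ _ (hν (by omega)) c hc' d hd'
    · exact hx.succ _ _ (hν (by omega)) c hc' d hd'
    · exact hx.succ _ _ (hν (by omega)) c hc' d hd'
  · rcases mem_union.1 (hsupp k hα) with h1 | h1
    · exact hx.lt hb _ α h1
    · exact hx.lt hb _ α h1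
  · obtain ⟨k₀, hk₀⟩ := hx.tail hb hα
    refine ⟨k₀, fun β hβ => ?_⟩
    rcases mem_union.1 (hsupp k₀ hβ) with h1 | h1
    · exact hk₀ _ (hνk k₀) β h1
    · exact hk₀ _ (hνk' k₀) β h1
  · -- norm at least one
    set y := x (ν (2 * k)) with hy
    set y' := x (ν (2 * k + 1)) with hy'
    have hI : ({c : W | ∀ d ∈ y'.support, c < d}).OrdConnected :=
      ⟨fun p _ q hq r hr d hd => hr.2.trans_lt (hq d hd)⟩
    have h1 : res {c : W | ∀ d ∈ y'.support, c < d} (y - y') = y := by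
      rw [B.res_sub, B.res_eq_self, B.res_eq_zero, sub_zero]
      · intro c hc hcon
        exact lt_irrefl _ (hcon c hc)
      · intro c hc d hd
        exact hx.succ _ _ (hν1 k) c hc d hd
    have h2 := nrm_res_le hI (y - y')
    rw [h1, hy, hx.one] at h2
    exact h2
  · refine (nrm_sub_le _ _).trans ?_
    rw [hx.one, hx.one]
    norm_num
  · exact (hx.ab _).trans (hx.b_mono (hν1 k))
  · exact hx.b_le_a (hν (by omega))
  · refine (hsupp i).trans (union_subset ?_ ?_)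
    · exact hx.coh _ _ (hν (by omega))
    · exact hx.coh _ _ (hν (by omega))
  · -- the window part tends to zero
    rw [Metric.tendsto_atTop]
    intro ε hε
    -- the choice of `J`
    obtain ⟨J, hJ⟩ := exists_nat_gt (12 / (ε / 3))
    have hJ' : 6 * (2 * (m (ell J) : ℝ)⁻¹) < ε / 3 := by
      have h1 : (J : ℝ) ≤ m (ell J) := by exact_mod_cast (B.lt_m_ell J).le
      rw [div_lt_iff₀ (by positivity)] at hJ
      have h2 : 12 < (m (ell J) : ℝ) * (ε / 3) :=
        hJ.trans_le (mul_le_mul_of_nonneg_right h1 (by positivity))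
      have h3 : 6 * (2 * (m (ell J) : ℝ)⁻¹) = 12 / (m (ell J) : ℝ) := by
        rw [div_eq_mul_inv]; ring
      rw [h3, div_lt_iff₀ (m_posR _), mul_comm]
      exact h2
    obtain ⟨k₁, hk₁⟩ := hvb.fin_vanish Φ J
    obtain ⟨k₂, hk₂⟩ := hconv Φ hΦ (ε / 3) (by positivity)
    obtain ⟨k₃, hk₃⟩ := exists_pow_lt_of_lt_one (show 0 < ε / 6 by positivity)
      (show (1 / 2 : ℝ) < 1 by norm_num)
    refine ⟨max k₁ (max k₂ k₃), fun k hk => ?_⟩
    have hkk1 : k₁ ≤ k := (le_max_left _ _).trans hk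
    have hkk2 : k₂ ≤ k := ((le_max_left _ _).trans (le_max_right _ _)).trans hk
    have hkk3 : k₃ ≤ k := ((le_max_right _ _).trans (le_max_right _ _)).trans hk
    have hvan : ∀ j < J, ∀ α ∈ (x (ν (2 * k)) - x (ν (2 * k + 1))).support, (Φ j).φ α = 0 := by
      intro j hj α hα
      rcases mem_union.1 (hsupp k hα) with h1 | h1
      · exact hk₁ _ (hkk1.trans (hνk k)) j hj α h1
      · exact hk₁ _ (hkk1.trans (hνk' k)) j hj α h1
    have h1 := abs_window_le hΦ (x (ν (2 * k)) - x (ν (2 * k + 1))) (by norm_num) (havg k)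
      (hhigh k) hvan
    have h2 : |pr (br Φ) (x (ν (2 * k)) - x (ν (2 * k + 1)))| < ε / 3 := by
      rw [map_sub]
      exact hk₂ (2 * k) (by omega) (2 * k + 1) (by omega)
    have h3 : 2 * (1 / 2 : ℝ) ^ (k + 5) < ε / 3 := by
      have h4 : (1 / 2 : ℝ) ^ (k + 5) ≤ (1 / 2 : ℝ) ^ k₃ :=
        pow_le_pow_of_le_one (by norm_num) (by norm_num) (by omega)
      linarith
    rw [Real.dist_eq, sub_zero]
    linarith

/-- Existence of averages. -/
theorem avgExists : AvgExists := by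
  intro z hs hz A K₀
  obtain ⟨a, L, c, ha, -, -, -, -, h1, h2⟩ := H200.exists_avg z hs (fun i => (hz i).1)
    (fun i => (hz i).2) (q := max 20 (ell A + 1)) (le_max_left _ _) K₀
  refine ⟨_, ?_, h1, AvgBound.mono h2 ?_⟩
  · refine Submodule.smul_mem _ _ (Submodule.sum_mem _ fun i hi => ?_)
    exact Submodule.subset_span ⟨i, ha.trans (mem_Ico.1 hi).1, rfl⟩
  · have h3 : ell A ≤ max 20 (ell A + 1) - 1 := by
      have := le_max_right 20 (ell A + 1)
      omega
    exact (Nat.lt_two_pow_self).le.trans (Nat.pow_le_pow_right (by norm_num) h3)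

/-- **H1**: existence of the sequences `z`. -/
theorem exists_zseq {l : W} {h : ℕ → Vec} (hb : IsBlock l h) : ∃ z a b, ZSeq l h z a b :=
  exists_zseq_of_avg avgExists hb

end Vale.Agent.P129.H560
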