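import Mathlib.Topology.Sequences
import Mathlib.Topology.MetricSpace.Basic
import Mathlib.Topology.MetricSpace.Bounded
import Mathlib.Topology.Bases
import Mathlib.Analysis.Normed.Ring.Lemmas
import Mathlib.Analysis.SpecificLimits.Basic
import Mathlib.Tactic

/-!
# P129, part F: branch convergence

`v b k` is the value of the functional (branch) `b` at the `k`-th vector.  If any finitely many
distinct branches have eventually small total mass, then along a subsequence every branch
converges, and all but countably many converge to `0`.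
-/

open Filter Topology

namespace Vale.Agent.P129.H560

variable {β : Type*}

/-- One step: after passing to an infinite subset, all but finitely many branches are smaller
than `δ` at almost all members. -/
theorem step (v : β → ℕ → ℝ) {M : ℝ}
    (hM : ∀ s : Finset β, ∀ᶠ k in atTop, ∑ b ∈ s, |v b k| ≤ M)
    {δ : ℝ} (hδ : 0 < δ) (N : Set ℕ) (hN : N.Infinite) :
    ∃ N' ⊆ N, N'.Infinite ∧ ∃ s : Finset β, ∀ b ∉ s, {k | k ∈ N' ∧ δ ≤ |v b k|}.Finite := by
  classical
  let P : ℕ → Prop := fun n => ∃ N' ⊆ N, N'.Infinite ∧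
    ∃ s : Finset β, s.card = n ∧ ∀ b ∈ s, ∀ k ∈ N', δ ≤ |v b k|
  have hP0 : P 0 := ⟨N, subset_rfl, hN, ∅, rfl, by simp⟩
  have hbound : ∀ n, P n → (n : ℝ) * δ ≤ M := by
    rintro n ⟨N', -, hN'inf, s, hs, hheavy⟩
    obtain ⟨K, hK⟩ := eventually_atTop.1 (hM s)
    obtain ⟨k, hkN, hk⟩ := hN'inf.exists_gt K
    calc (n : ℝ) * δ = ∑ b ∈ s, δ := by simp [hs]
      _ ≤ ∑ b ∈ s, |v b k| := Finset.sum_le_sum fun b hb => hheavy b hb k hkN
      _ ≤ M := hK k hk.le
  have hmax : ∃ n, P n ∧ ¬ P (n + 1) := by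
    by_contra hcon
    push Not at hcon
    have hall : ∀ n, P n := fun n => Nat.rec hP0 (fun n ih => hcon n ih) n
    obtain ⟨n, hn⟩ := exists_nat_gt (M / δ)
    have := hbound n (hall n)
    rw [div_lt_iff₀ hδ] at hn
    linarith
  obtain ⟨n, ⟨N', hsub, hinf, s, hs, hheavy⟩, hn1⟩ := hmax
  refine ⟨N', hsub, hinf, s, fun b hb => ?_⟩
  by_contra hfin
  apply hn1
  refine ⟨{k | k ∈ N' ∧ δ ≤ |v b k|}, fun k hk => hsub hk.1, hfin, insert b s, ?_, ?_⟩
  · rw [Finset.card_insert_of_notMem hb, hs]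
  · intro b' hb' k hk
    rcases Finset.mem_insert.1 hb' with rfl | hb'
    · exact hk.2
    · exact hheavy b' hb' k hk.1

/-- **Branch convergence.**  If `|v b k| ≤ C` and any finitely many distinct branches satisfy
`∑ |v b k| ≤ M` for all large `k`, then along some subsequence every branch converges, and all
but countably many of them converge to `0`. -/
theorem exists_subseq_tendsto (v : β → ℕ → ℝ) {C M : ℝ} (hC : ∀ b k, |v b k| ≤ C)
    (hM : ∀ s : Finset β, ∀ᶠ k in atTop, ∑ b ∈ s, |v b k| ≤ M) :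
    ∃ φ : ℕ → ℕ, StrictMono φ ∧ ∃ l : β → ℝ, {b | l b ≠ 0}.Countable ∧
      ∀ b, Tendsto (fun k => v b (φ k)) atTop (𝓝 (l b)) := by
  classical
  -- the decreasing sequence of infinite sets
  let T := {N : Set ℕ // N.Infinite}
  have hstep : ∀ (n : ℕ) (N : T), ∃ N' : T, N'.1 ⊆ N.1 ∧
      ∃ s : Finset β, ∀ b ∉ s, {k | k ∈ N'.1 ∧ 1 / ((n : ℝ) + 1) ≤ |v b k|}.Finite := by
    intro n N
    obtain ⟨N', h1, h2, h3⟩ := step v hM (δ := 1 / ((n : ℝ) + 1)) (by positivity) N.1 N.2
    exact ⟨⟨N', h2⟩, h1, h3⟩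
  choose nxt hsub fin hfin using hstep
  let A : ℕ → T := fun n => Nat.rec ⟨Set.univ, Set.infinite_univ⟩ (fun n N => nxt n N) n
  have hA : ∀ n, A (n + 1) = nxt n (A n) := fun n => rfl
  have hAanti : ∀ m n, m ≤ n → (A n).1 ⊆ (A m).1 := by
    intro m n hmn
    induction n, hmn using Nat.le_induction with
    | base => exact subset_rfl
    | succ n _ ih => exact (hA n ▸ hsub n (A n)).trans ih
  -- the diagonal sequence
  have hgt : ∀ (n k : ℕ), ∃ k' ∈ (A (n + 1)).1, k < k' := fun n k => (A (n + 1)).2.exists_gt k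
  choose g hgA hglt using hgt
  let ψ : ℕ → ℕ := fun n => Nat.rec 0 (fun n k => g n k) n
  have hψ : ∀ n, ψ (n + 1) = g n (ψ n) := fun n => rfl
  have hψmono : StrictMono ψ := strictMono_nat_of_lt_succ fun n => by rw [hψ]; exact hglt _ _
  have hψA : ∀ n j, n < j → ψ j ∈ (A n).1 := by
    intro n j hj
    obtain ⟨i, rfl⟩ : ∃ i, j = i + 1 := ⟨j - 1, by omega⟩
    exact hAanti n (i + 1) hj.le (by rw [hψ]; exact hgA _ _)
  -- the exceptional countable set
  let S : Set β := ⋃ n, (fin n (A n) : Set β)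
  have hS : S.Countable := Set.countable_iUnion fun n => (Finset.countable_toSet _)
  have hout : ∀ b ∉ S, Tendsto (fun k => v b (ψ k)) atTop (𝓝 0) := by
    intro b hb
    rw [Metric.tendsto_atTop]
    intro ε hε
    obtain ⟨n, hn⟩ := exists_nat_one_div_lt hε
    have hbn : b ∉ fin n (A n) := fun h => hb (Set.mem_iUnion.2 ⟨n, h⟩)
    have hf := hfin n (A n) b hbn
    obtain ⟨K, hK⟩ := hf.bddAbove
    refine ⟨max (n + 2) (K + 1), fun j hj => ?_⟩
    have hj1 : n + 1 < j := lt_of_lt_of_le (by omega) ((le_max_left _ _).trans hj)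
    have hj2 : K < j := lt_of_lt_of_le (by omega) ((le_max_right _ _).trans hj)
    have hmem : ψ j ∈ (nxt n (A n)).1 := by rw [← hA]; exact hψA (n + 1) j hj1
    have hlt : ¬ (1 / ((n : ℝ) + 1) ≤ |v b (ψ j)|) := by
      intro h
      have h1 := hK ⟨hmem, h⟩
      have h2 := hψmono.id_le j
      simp only [id] at h2
      omega
    rw [Real.dist_eq, sub_zero]
    push Not at hlt
    exact hlt.trans hn
  -- compactness for the countably many remaining ones
  have : Countable S := hS.to_subtype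
  have hcomp : IsCompact (Set.univ.pi fun _ : S => Set.Icc (-C) C) :=
    isCompact_univ_pi fun _ => isCompact_Icc
  obtain ⟨a, -, θ, hθ, hlim⟩ := hcomp.tendsto_subseq (x := fun k (b : S) => v b (ψ k))
    (fun k b _ => abs_le.1 (hC b _))
  rw [tendsto_pi_nhds] at hlim
  refine ⟨ψ ∘ θ, hψmono.comp hθ, fun b => if h : b ∈ S then a ⟨b, h⟩ else 0, ?_, ?_⟩
  · refine hS.mono fun b hb => ?_
    by_contra h
    simp [h] at hb
  · intro b
    by_cases h : b ∈ S
    · simp only [h, dif_pos]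
      exact hlim ⟨b, h⟩
    · simp only [h, dif_neg, not_false_iff]
      exact (hout b h).comp hθ.tendsto_atTop

/-- The differences of successive members of the subsequence are killed by all branches; this
is inherited by all subsequences and by all block differences `h (φ (2i)) - h (φ (2i+1))`. -/
theorem exists_subseq_diff (v : β → ℕ → ℝ) {C M : ℝ} (hC : ∀ b k, |v b k| ≤ C)
    (hM : ∀ s : Finset β, ∀ᶠ k in atTop, ∑ b ∈ s, |v b k| ≤ M) :
    ∃ φ : ℕ → ℕ, StrictMono φ ∧
      ∀ b, ∀ ε > 0, ∃ K, ∀ i ≥ K, ∀ j ≥ K, |v b (φ i) - v b (φ j)| < ε := by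
  obtain ⟨φ, hφ, l, -, hl⟩ := exists_subseq_tendsto v hC hM
  refine ⟨φ, hφ, fun b ε hε => ?_⟩
  obtain ⟨K, hK⟩ := Metric.cauchySeq_iff.1 (hl b).cauchySeq ε hε
  exact ⟨K, fun i hi j hj => by simpa [Real.dist_eq] using hK i hi j hj⟩

end Vale.Agent.P129.H560
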