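import Vale.Agent.P129.H487.Ap
import Vale.Agent.P129.H630.B1
import Vale.Agent.P129.H50.Supply
import Vale.Agent.P129.H560.Branch

/-!
# P129, parts F and H1: branch convergence for block sequences of vectors
-/

open Finset Filter Topology

namespace Vale.Agent.P129.H560

open H448 H487

/-- On the support of `x` only the nodes in `T` are nonzero: the branch functional is the sum of
these nodes. -/
theorem pr_br_eq {Φ : ℕ → Node} (x : Vec) (T : Finset ℕ)
    (hT : ∀ k ∉ T, ∀ a ∈ x.support, (Φ k).φ a = 0) :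
    pr (br Φ) x = ∑ k ∈ T, ap (Φ k).φ x := by
  have h1 : ∀ a ∈ x.support, br Φ a = ∑ k ∈ T, ((Φ k).φ a : ℝ) := by
    intro a ha
    unfold br tl
    simp only [Nat.zero_le, if_true]
    refine finsum_eq_sum_of_support_subset _ ?_
    intro k hk
    by_contra hkT
    exact hk (by simp [hT k (by simpa using hkT) a ha])
  rw [← ap_sum_left, ap_eq]
  unfold pr
  rw [Finsupp.linearCombination_apply, Finsupp.sum]
  refine sum_congr rfl fun a ha => ?_
  rw [h1 a ha, Finsupp.finsetSum_apply, smul_eq_mul]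
  push_cast
  rfl

/-- At every coordinate at most one node of an infinite special sequence is nonzero. -/
theorem node_unique {Φ : ℕ → Node} (h : IsInf Φ) {a : W} {j k : ℕ} (hj : (Φ j).φ a ≠ 0)
    (hk : (Φ k).φ a ≠ 0) : j = k := by
  rcases lt_trichotomy j k with h1 | h1 | h1
  · exact absurd ((h (k + 1)).cod.bef h1 (Nat.lt_succ_self k) a (Finsupp.mem_support_iff.2 hj) a
      (Finsupp.mem_support_iff.2 hk)) (lt_irrefl a)
  · exact h1
  · exact absurd ((h (j + 1)).cod.bef h1 (Nat.lt_succ_self j) a (Finsupp.mem_support_iff.2 hk) a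
      (Finsupp.mem_support_iff.2 hj)) (lt_irrefl a)

theorem exists_vanish {Φ : ℕ → Node} (h : IsInf Φ) (x : Vec) :
    ∃ N, ∀ k, N ≤ k → ∀ a ∈ x.support, (Φ k).φ a = 0 := by
  classical
  have h1 : ∀ a : W, ∃ N, ∀ k, N ≤ k → (Φ k).φ a = 0 := by
    intro a
    by_cases hex : ∃ j, (Φ j).φ a ≠ 0
    · obtain ⟨j, hj⟩ := hex
      refine ⟨j + 1, fun k hk => ?_⟩
      by_contra hne
      have := node_unique h hj hne
      omega
    · push Not at hex
      exact ⟨0, fun k _ => hex k⟩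
  choose g hg using h1
  exact ⟨x.support.sup g, fun k hk a ha => hg a k ((Finset.le_sup (f := g) ha).trans hk)⟩

theorem res_univ {R : Type} [Zero R] (x : W →₀ R) : res Set.univ x = x := by
  classical
  ext a
  simp [res_apply]

/-- the segment of the first `N` nodes with weight index `≥ R` -/
def tseg (Φ : ℕ → Node) (N R : ℕ) : Seg := ⟨Φ, N, Set.Ici R, Set.univ⟩

theorem tseg_ok {Φ : ℕ → Node} (h : IsInf Φ) (N R : ℕ) : (tseg Φ N R).Ok K :=
  ⟨h N, Set.ordConnected_Ici, Set.ordConnected_univ⟩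

theorem mem_tseg_nodes {Φ : ℕ → Node} {N R k : ℕ} :
    k ∈ (tseg Φ N R).nodes ↔ k < N ∧ R ≤ (Φ k).w := mem_nodes

theorem pr_br_tseg {Φ : ℕ → Node} (x : Vec) {N R : ℕ}
    (h1 : ∀ k, N ≤ k → ∀ a ∈ x.support, (Φ k).φ a = 0)
    (h2 : ∀ k, (Φ k).w < R → ∀ a ∈ x.support, (Φ k).φ a = 0) :
    pr (br Φ) x = ap (tseg Φ N R).fn x := by
  rw [pr_br_eq x (tseg Φ N R).nodes, ap_fn]
  · refine sum_congr rfl fun k _ => ?_
    show _ = ap (res Set.univ (Φ k).φ) x
    rw [res_univ]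
  · intro k hk
    rw [mem_tseg_nodes, not_and_or, not_lt, not_le] at hk
    rcases hk with h | h
    · exact h1 k h
    · exact h2 k h

/-- (C) for segments numbered by `r < N`. -/
theorem sum_seg_le_range {N : ℕ} (g : ℕ → Seg) (hok : ∀ r < N, (g r).Ok K)
    (hd : ∀ r < N, ∀ r' < N, r ≠ r' → Disjoint (g r).idx (g r').idx)
    (hc : ∀ r < N, ∀ w ∈ (g r).idx, N ≤ w) (x : Vec) :
    ∑ r ∈ range N, |ap (g r).fn x| ≤ nrm x := by
  classical
  let ε : ℕ → ℚ := fun r => if 0 ≤ ap (g r).fn x then 1 else -1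
  have hK : (∑ r ∈ range N, ε r • (g r).fn) ∈ K :=
    B.Sums_subset_K 0 ⟨N, g, ε, ⟨hok, fun r _ => by
      by_cases h : 0 ≤ ap (g r).fn x
      · exact Or.inl (if_pos h)
      · exact Or.inr (if_neg h), hd, hc, fun _ _ _ _ => Nat.zero_le _⟩, rfl⟩
  have h1 := abs_ap_le_nrm hK x
  rw [ap_sum_left] at h1
  have h2 : ∑ r ∈ range N, ap (ε r • (g r).fn) x = ∑ r ∈ range N, |ap (g r).fn x| := by
    refine sum_congr rfl fun r _ => ?_
    rw [ap_smul_left]
    by_cases h : 0 ≤ ap (g r).fn x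
    · rw [show ε r = 1 from if_pos h, abs_of_nonneg h]; simp
    · rw [show ε r = -1 from if_neg h, abs_of_neg (not_le.1 h)]; simp
  rw [h2] at h1
  exact (le_abs_self _).trans h1

/-- (C) for finitely many segments with disjoint weight indices. -/
theorem sum_seg_le {β : Type*} (s : Finset β) (g : β → Seg) (hok : ∀ b ∈ s, (g b).Ok K)
    (hd : ∀ b ∈ s, ∀ b' ∈ s, b ≠ b' → Disjoint (g b).idx (g b').idx)
    (hc : ∀ b ∈ s, ∀ w ∈ (g b).idx, s.card ≤ w) (x : Vec) :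
    ∑ b ∈ s, |ap (g b).fn x| ≤ nrm x := by
  classical
  rcases s.eq_empty_or_nonempty with rfl | ⟨b₀, hb₀⟩
  · simpa using (abs_nonneg _).trans (abs_ap_le_nrm B.zero_mem_K x)
  let e := s.equivFin
  let f : ℕ → β := fun r => if h : r < s.card then (e.symm ⟨r, h⟩ : β) else b₀
  have hf : ∀ r, f r ∈ s := by
    intro r
    by_cases h : r < s.card
    · simp only [f, dif_pos h]; exact (e.symm ⟨r, h⟩).2
    · simp only [f, dif_neg h]; exact hb₀
  have hinj : ∀ r < s.card, ∀ r' < s.card, f r = f r' → r = r' := by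
    intro r hr r' hr' he
    simp only [f, dif_pos hr, dif_pos hr'] at he
    have := e.symm.injective (Subtype.ext he)
    simpa using this
  have h1 := sum_seg_le_range (N := s.card) (fun r => g (f r)) (fun r _ => hok _ (hf r))
    (fun r hr r' hr' hne => hd _ (hf r) _ (hf r') fun he => hne (hinj r hr r' hr' he))
    (fun r _ => hc _ (hf r)) x
  refine le_trans (le_of_eq ?_) h1
  symm
  refine sum_bij (fun r _ => f r) (fun r _ => hf r) (fun r hr r' hr' he =>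
    hinj r (mem_range.1 hr) r' (mem_range.1 hr') he) ?_ (fun r _ => rfl)
  intro b hb
  refine ⟨(e ⟨b, hb⟩ : Fin s.card).1, mem_range.2 (e ⟨b, hb⟩).2, ?_⟩
  simp [f]

theorem abs_pr_br_le {Φ : ℕ → Node} (h : IsInf Φ) (x : Vec) : |pr (br Φ) x| ≤ nrm x := by
  obtain ⟨N, hN⟩ := exists_vanish h x
  rw [pr_br_tseg (R := 0) x hN (fun k hk => absurd hk (Nat.not_lt_zero _))]
  have := sum_seg_le {()} (fun _ => tseg Φ N 0) (fun _ _ => tseg_ok h N 0)
    (fun b _ b' _ hne => absurd rfl hne) (fun _ _ w hw => ?_) x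
  · simpa using this
  · obtain ⟨k, hk, rfl⟩ := mem_image.1 hw
    have := (h (k + 1)).cod.le_w (Nat.lt_succ_self k)
    have h2 : k < (Φ k).w := this
    show _ ≤ (Φ k).w
    rw [card_singleton]
    omega

/-- a sequence of vectors cofinal in `l` -/
structure VBlock (l : W) (x : ℕ → Vec) : Prop where
  succ : ∀ j k, j < k → SLt (x j).support (x k).support
  lt : ∀ k, ∀ a ∈ (x k).support, a < l
  cof : ∀ a < l, ∃ k₀, ∀ k, k₀ ≤ k → ∀ b ∈ (x k).support, a < b

/-- finitely many functionals vanish on the tail of `x` -/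
theorem VBlock.fin_vanish {l : W} {x : ℕ → Vec} (hx : VBlock l x) (Φ : ℕ → Node) (J : ℕ) :
    ∃ k₀, ∀ k, k₀ ≤ k → ∀ j < J, ∀ a ∈ (x k).support, (Φ j).φ a = 0 := by
  classical
  have h1 : ∀ a : W, ∃ k₀, a < l → ∀ k, k₀ ≤ k → ∀ b ∈ (x k).support, a < b := by
    intro a
    by_cases ha : a < l
    · obtain ⟨k, hk⟩ := hx.cof a ha
      exact ⟨k, fun _ => hk⟩
    · exact ⟨0, fun h => absurd h ha⟩
  choose g hg using h1
  refine ⟨((range J).biUnion fun j => (Φ j).φ.support).sup g, fun k hk j hj a ha => ?_⟩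
  by_contra hne
  have hmem : a ∈ (range J).biUnion fun j => (Φ j).φ.support :=
    mem_biUnion.2 ⟨j, mem_range.2 hj, Finsupp.mem_support_iff.2 hne⟩
  exact lt_irrefl _ (hg a (hx.lt k a ha) k ((Finset.le_sup (f := g) hmem).trans hk) a ha)

/-- the branch is cofinal in `l` -/
def CofB (l : W) (Φ : ℕ → Node) : Prop :=
  (∀ k, ∀ a ∈ (Φ k).φ.support, a < l) ∧ ∀ a < l, ∃ k, ∃ b ∈ (Φ k).φ.support, a < b

/-- A branch which is not cofinal vanishes on the tail of `x`. -/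
theorem VBlock.vanish_of_not_cofB {l : W} {x : ℕ → Vec} (hx : VBlock l x)
    {Φ : ℕ → Node} (hΦ : IsInf Φ) (h : ¬ CofB l Φ) :
    ∃ k₀, ∀ k, k₀ ≤ k → pr (br Φ) (x k) = 0 := by
  classical
  suffices H : ∃ k₀, ∀ k, k₀ ≤ k → ∀ j, ∀ a ∈ (x k).support, (Φ j).φ a = 0 by
    obtain ⟨k₀, hk₀⟩ := H
    refine ⟨k₀, fun k hk => ?_⟩
    rw [pr_br_eq (x k) ∅ fun j _ => hk₀ k hk j]
    simp
  by_cases h1 : ∀ k, ∀ a ∈ (Φ k).φ.support, a < l
  · have h2 : ¬ ∀ a < l, ∃ k, ∃ b ∈ (Φ k).φ.support, a < b := fun h2 => h ⟨h1, h2⟩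
    push Not at h2
    obtain ⟨a, hal, ha⟩ := h2
    obtain ⟨k₀, hk₀⟩ := hx.cof a hal
    refine ⟨k₀, fun k hk j b hb => ?_⟩
    by_contra hne
    exact absurd (hk₀ k hk b hb) (not_lt.2 (ha j b (Finsupp.mem_support_iff.2 hne)))
  · push Not at h1
    obtain ⟨j₀, a₀, ha₀, hla₀⟩ := h1
    obtain ⟨k₀, hk₀⟩ := hx.fin_vanish Φ (j₀ + 1)
    refine ⟨k₀, fun k hk j a ha => ?_⟩
    rcases lt_or_ge j (j₀ + 1) with hj | hj
    · exact hk₀ k hk j hj a ha
    · by_contra hne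
      have h3 := (hΦ (j + 1)).cod.bef (show j₀ < j by omega) (Nat.lt_succ_self j) a₀ ha₀ a
        (Finsupp.mem_support_iff.2 hne)
      exact absurd (hx.lt k a ha) (not_lt.2 (hla₀.trans h3.le))

/-- Two cofinal branches with infinitely many common weight indices coincide. -/
theorem eq_of_cofB {l : W} {Φ Ψ : ℕ → Node} (hΦ : IsInf Φ) (hΨ : IsInf Ψ) (cΦ : CofB l Φ)
    (cΨ : CofB l Ψ) (h : ¬ AlmostDisj Φ Ψ) : Φ = Ψ := by
  have hi : H853.InfCoded F Φ := fun j => (hΦ (j + 1)).cod j (Nat.lt_succ_self j)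
  have hi' : H853.InfCoded F Ψ := fun j => (hΨ (j + 1)).cod j (Nat.lt_succ_self j)
  have hw : ∀ j, (Φ j).w = (Ψ j).w := by
    intro j
    by_contra hne
    apply h
    refine ((range (j + 1)).image fun k => (Φ k).w).finite_toSet.subset ?_
    rintro w ⟨⟨k, hk⟩, ⟨k', hk'⟩⟩
    rw [Finset.coe_image, Set.mem_image]
    refine ⟨k, ?_, hk⟩
    rw [Finset.coe_range, Set.mem_Iio]
    by_contra hcon
    have hkk : k = k' := ((hΦ (k + 1)).cod.of_w_eq (hΨ (k' + 1)).cod (Nat.lt_succ_self k)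
      (Nat.lt_succ_self k') (hk.trans hk'.symm)).1
    subst hkk
    exact hne (hi.w_eq_of_le hi' (show j ≤ k by omega) (hk.trans hk'.symm))
  refine funext fun j => hi.eq_of_w_eq F_coherent hi' hw ?_ ?_ j
  · intro i ξ hξ
    obtain ⟨k, b, hb, hlt⟩ := cΨ.2 ξ (cΦ.1 i ξ hξ)
    exact ⟨k, b, hb, hlt.le⟩
  · intro i ξ hξ
    obtain ⟨k, b, hb, hlt⟩ := cΦ.2 ξ (cΨ.1 i ξ hξ)
    exact ⟨k, b, hb, hlt.le⟩

/-- **Branch convergence** for vectors. -/
theorem branch_conv {l : W} {x : ℕ → Vec} (hx : VBlock l x)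
    (hn : ∀ k, nrm (x k) ≤ 1) :
    ∃ ν : ℕ → ℕ, StrictMono ν ∧ ∀ Φ, IsInf Φ → ∀ ε > 0, ∃ k₀, ∀ i ≥ k₀, ∀ j ≥ k₀,
      |pr (br Φ) (x (ν i)) - pr (br Φ) (x (ν j))| < ε := by
  classical
  -- the family of branches cofinal in `l`
  let β := {Φ : ℕ → Node // IsInf Φ ∧ CofB l Φ}
  let v : β → ℕ → ℝ := fun b k => pr (br b.1) (x k)
  have hC : ∀ b k, |v b k| ≤ 1 := fun b k => (abs_pr_br_le b.2.1 (x k)).trans (hn k)
  have hM : ∀ s : Finset β, ∀ᶠ k in atTop, ∑ b ∈ s, |v b k| ≤ 1 := by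
    intro s
    -- a bound for the common weight indices
    have hfin : (⋃ b ∈ s, ⋃ b' ∈ s, ⋃ (_ : b ≠ b'),
        {w | (∃ k, (b.1 k).w = w) ∧ ∃ k, (b'.1 k).w = w}).Finite := by
      refine s.finite_toSet.biUnion fun b _ => s.finite_toSet.biUnion fun b' _ =>
        Set.finite_iUnion fun hne => ?_
      by_contra hcon
      exact hne (Subtype.ext (eq_of_cofB b.2.1 b'.2.1 b.2.2 b'.2.2 hcon))
    obtain ⟨R₀, hR₀⟩ := hfin.bddAbove
    set R := max (R₀ + 1) s.card with hR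
    have h1 : ∀ b : β, ∃ k₀, ∀ k, k₀ ≤ k → ∀ j < R, ∀ a ∈ (x k).support, (b.1 j).φ a = 0 :=
      fun b => hx.fin_vanish b.1 R
    choose g hg using h1
    refine eventually_atTop.2 ⟨s.sup g, fun k hk => ?_⟩
    choose N hN using fun b : β => exists_vanish b.2.1 (x k)
    have h2 : ∑ b ∈ s, |v b k| = ∑ b ∈ s, |ap (tseg b.1 (N b) R).fn (x k)| := by
      refine sum_congr rfl fun b hb => ?_
      have : v b k = ap (tseg b.1 (N b) R).fn (x k) := by
        refine pr_br_tseg (x k) (hN b) fun j hj => ?_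
        have h3 := (b.2.1 (j + 1)).cod.le_w (Nat.lt_succ_self j)
        exact hg b k ((Finset.le_sup (f := g) hb).trans hk) j (by omega)
      rw [this]
    rw [h2]
    refine (sum_seg_le s (fun b => tseg b.1 (N b) R) (fun b _ => tseg_ok b.2.1 _ _) ?_ ?_
      (x k)).trans (hn k)
    · intro b hb b' hb' hne
      rw [Finset.disjoint_left]
      intro w hw hw'
      obtain ⟨i, hi, rfl⟩ := mem_image.1 hw
      obtain ⟨i', hi', he⟩ := mem_image.1 hw'
      have h3 := (mem_tseg_nodes.1 hi).2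
      have h4 : (b.1 i).w ≤ R₀ := by
        refine hR₀ ?_
        simp only [Set.mem_iUnion]
        exact ⟨b, hb, b', hb', hne, ⟨i, rfl⟩, ⟨i', he⟩⟩
      omega
    · intro b hb w hw
      obtain ⟨i, hi, rfl⟩ := mem_image.1 hw
      have h3 := (mem_tseg_nodes.1 hi).2
      exact (le_max_right _ _).trans h3
  obtain ⟨ν, hν, hd⟩ := exists_subseq_diff v hC hM
  refine ⟨ν, hν, fun Φ hΦ ε hε => ?_⟩
  by_cases hc : CofB l Φ
  · exact hd ⟨Φ, hΦ, hc⟩ ε hε
  · obtain ⟨k₀, hk₀⟩ := hx.vanish_of_not_cofB hΦ hc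
    refine ⟨k₀, fun i hi j hj => ?_⟩
    rw [hk₀ _ (hi.le.trans (hν.id_le i)), hk₀ _ (hj.le.trans (hν.id_le j))]
    simpa using hε

end Vale.Agent.P129.H560
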